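import Vale.Agent.P196_h16.Glue

/-!
# Finitely presented groups acting with bounded cuts
-/

set_option autoImplicit false

open Pointwise

namespace Vale.Agent.P196

universe u v

section Boundary

variable {G : Type u} [Group G] {Ω : Type v} [MulAction G Ω]

theorem bdry_mul {F : Set Ω} (hF : F.Finite) (g h : G) :
    {y | y ∈ F ∧ (g * h) • y ∉ F}.ncard ≤
      {y | y ∈ F ∧ g • y ∉ F}.ncard + {y | y ∈ F ∧ h • y ∉ F}.ncard := by
  have h1 : {y | y ∈ F ∧ (g * h) • y ∉ F} ⊆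
      (fun y => h⁻¹ • y) '' {y | y ∈ F ∧ g • y ∉ F} ∪ {y | y ∈ F ∧ h • y ∉ F} := by
    rintro y ⟨hy, hgy⟩
    by_cases hh : h • y ∈ F
    · left
      exact ⟨h • y, ⟨hh, by rwa [← mul_smul]⟩, by simp⟩
    · right
      exact ⟨hy, hh⟩
  have f1 : {y | y ∈ F ∧ g • y ∉ F}.Finite := hF.subset fun y hy => hy.1
  have f2 : {y | y ∈ F ∧ h • y ∉ F}.Finite := hF.subset fun y hy => hy.1
  refine (Set.ncard_le_ncard h1 ((f1.image _).union f2)).trans ?_
  refine (Set.ncard_union_le _ _).trans ?_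
  exact Nat.add_le_add_right (Set.ncard_image_le f1) _

theorem bdry_inv {F : Set Ω} (hF : F.Finite) (g : G) :
    {y | y ∈ F ∧ g⁻¹ • y ∉ F}.ncard ≤ {y | y ∈ F ∧ g • y ∉ F}.ncard := by
  have e1 : {y | y ∈ F ∧ g⁻¹ • y ∈ F}.ncard + {y | y ∈ F ∧ g⁻¹ • y ∉ F}.ncard = F.ncard := by
    rw [← Set.ncard_union_eq (by
      rw [Set.disjoint_left]; rintro y ⟨_, h1⟩ ⟨_, h2⟩; exact h2 h1)
      (hF.subset fun y hy => hy.1) (hF.subset fun y hy => hy.1)]
    congr 1; ext y; simp only [Set.mem_union, Set.mem_ofPred_eq]; tauto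
  have e2 : {y | y ∈ F ∧ g • y ∈ F}.ncard + {y | y ∈ F ∧ g • y ∉ F}.ncard = F.ncard := by
    rw [← Set.ncard_union_eq (by
      rw [Set.disjoint_left]; rintro y ⟨_, h1⟩ ⟨_, h2⟩; exact h2 h1)
      (hF.subset fun y hy => hy.1) (hF.subset fun y hy => hy.1)]
    congr 1; ext y; simp only [Set.mem_union, Set.mem_ofPred_eq]; tauto
  have e3 : {y | y ∈ F ∧ g • y ∈ F}.ncard ≤ {y | y ∈ F ∧ g⁻¹ • y ∈ F}.ncard := by
    have : (fun y => g • y) '' {y | y ∈ F ∧ g • y ∈ F} ⊆ {y | y ∈ F ∧ g⁻¹ • y ∈ F} := by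
      rintro _ ⟨y, ⟨h1, h2⟩, rfl⟩
      exact ⟨h2, by simpa using h1⟩
    rw [← Set.ncard_image_of_injective _ (MulAction.injective g)]
    exact Set.ncard_le_ncard this (hF.subset fun y hy => hy.1)
  omega

theorem bdry_gen {S : Set G} (hgen : Subgroup.closure S = ⊤) (g : G) :
    ∃ M : ℕ, ∀ F : Set Ω, F.Finite →
      {y | y ∈ F ∧ g • y ∉ F}.ncard ≤ M * {y | y ∈ F ∧ ∃ s ∈ S, s • y ∉ F}.ncard := by
  have hg : g ∈ Subgroup.closure S := by rw [hgen]; trivial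
  induction hg using Subgroup.closure_induction with
  | mem x hx =>
    refine ⟨1, fun F hF => ?_⟩
    rw [one_mul]
    exact Set.ncard_le_ncard (fun y hy => ⟨hy.1, x, hx, hy.2⟩) (hF.subset fun y hy => hy.1)
  | one =>
    refine ⟨0, fun F hF => ?_⟩
    have : {y | y ∈ F ∧ (1 : G) • y ∉ F} = ∅ := by
      ext y; simp
    rw [this]; simp
  | mul x y _ _ hx hy =>
    obtain ⟨M, hM⟩ := hx
    obtain ⟨M', hM'⟩ := hy
    refine ⟨M + M', fun F hF => (bdry_mul hF x y).trans ?_⟩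
    rw [add_mul]
    exact add_le_add (hM F hF) (hM' F hF)
  | inv x _ hx =>
    obtain ⟨M, hM⟩ := hx
    exact ⟨M, fun F hF => (bdry_inv hF x).trans (hM F hF)⟩

theorem bdry_transfer {S : Set G} (hgen : Subgroup.closure S = ⊤) {V : Set G} (hV : V.Finite) :
    ∃ M : ℕ, ∀ F : Set Ω, F.Finite →
      {y | y ∈ F ∧ ∃ s ∈ V, s • y ∉ F}.ncard ≤ M * {y | y ∈ F ∧ ∃ s ∈ S, s • y ∉ F}.ncard := by
  induction V, hV using Set.Finite.induction_on with
  | empty => exact ⟨0, fun F hF => by simp⟩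
  | @insert a s _ hs ih =>
    obtain ⟨M, hM⟩ := ih
    obtain ⟨M', hM'⟩ := bdry_gen (Ω := Ω) hgen a
    refine ⟨M' + M, fun F hF => ?_⟩
    have h1 : {y | y ∈ F ∧ ∃ t ∈ insert a s, t • y ∉ F} ⊆
        {y | y ∈ F ∧ a • y ∉ F} ∪ {y | y ∈ F ∧ ∃ t ∈ s, t • y ∉ F} := by
      rintro y ⟨hy, t, ht, hty⟩
      rcases Set.mem_insert_iff.1 ht with rfl | ht
      · exact Or.inl ⟨hy, hty⟩
      · exact Or.inr ⟨hy, t, ht, hty⟩
    refine (Set.ncard_le_ncard h1 ?_).trans ((Set.ncard_union_le _ _).trans ?_)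
    · exact (hF.subset fun y hy => hy.1).union (hF.subset fun y hy => hy.1)
    · rw [add_mul]
      exact add_le_add (hM' F hF) (hM F hF)

end Boundary

theorem finite_pow {G : Type u} [Group G] {V : Set G} (hV : V.Finite) (k : ℕ) :
    (V ^ k).Finite := by
  induction k with
  | zero => simp
  | succ k ih => rw [pow_succ]; exact ih.mul hV

section Main

variable {G : Type u} [Group G] {Ω : Type v} [MulAction G Ω]

theorem exists_enum {α : Type v} {B : Set α} (hB : B.Finite) (hne : B.Nonempty) {C : ℕ}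
    (hC : B.ncard ≤ C) : ∃ p : Fin C → α, Set.range p = B := by
  classical
  have := hB.fintype
  have : Nonempty B := hne.to_subtype
  have hcard : Fintype.card B ≤ Fintype.card (Fin C) := by
    rw [Fintype.card_fin, ← Nat.card_eq_fintype_card]
    exact hC
  obtain ⟨e⟩ := Function.Embedding.nonempty_of_card_le hcard
  refine ⟨fun i => (Function.invFun e i : B), ?_⟩
  ext x
  constructor
  · rintro ⟨i, rfl⟩
    exact (Function.invFun e i).2
  · intro hx
    obtain ⟨i, hi⟩ := Function.invFun_surjective e.injective ⟨x, hx⟩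
    exact ⟨i, by simp [hi]⟩

/-- If a finite set is invariant, the group acts on it through a finite quotient. -/
theorem of_invariant {F : Set Ω} (hF : F.Finite) (hinv : ∀ (g : G), ∀ y ∈ F, g • y ∈ F)
    (g : G) {x : Ω} (hx : x ∈ F) (hgx : g • x ≠ x) :
    ∃ N : Subgroup G, N.Normal ∧ N.FiniteIndex ∧ g ∉ N := by
  let T : SubMulAction G Ω := ⟨F, fun g {y} hy => hinv g y hy⟩
  have : Finite T := hF.to_subtype
  let Φ : G →* Equiv.Perm T := MulAction.toPermHom G T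
  refine ⟨Φ.ker, inferInstance, inferInstance, fun h => hgx ?_⟩
  have h1 : Φ g = 1 := h
  have h2 : Φ g ⟨x, hx⟩ = (⟨x, hx⟩ : T) := by rw [h1]; rfl
  have h3 : (g • (⟨x, hx⟩ : T) : T) = ⟨x, hx⟩ := h2
  exact congrArg Subtype.val h3

end Main

/-- **Main theorem.** A finitely presented group `G` acts on `Ω` with bounded cuts.  Then every
element of `G` which moves infinitely many points lies outside a normal subgroup of finite
index. -/
theorem exists_finiteIndex {G : Type u} [Group G] [hG : Group.IsFinitelyPresented G]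
    {Ω : Type v} [MulAction G Ω] {S : Set G} (hgen : Subgroup.closure S = ⊤)
    (C : ℕ)
    (hcut : ∀ K : Set Ω, K.Finite → ∃ F : Set Ω, F.Finite ∧ K ⊆ F ∧
      {y | y ∈ F ∧ ∃ s ∈ S, s • y ∉ F}.ncard ≤ C)
    (g : G) (hg : {x : Ω | g • x ≠ x}.Infinite) :
    ∃ N : Subgroup G, N.Normal ∧ N.FiniteIndex ∧ g ∉ N := by
  classical
  obtain ⟨d, φ, hφ, R, hRfin, hR⟩ := hG.out
  -- the alphabet
  set V : Set G := {1} ∪ Set.range (letter fun i => φ (FreeGroup.of i)) with hVdef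
  have hVfin : V.Finite := (Set.finite_singleton _).union (Set.finite_range _)
  have hV1 : (1 : G) ∈ V := Or.inl rfl
  have hVinv : ∀ s ∈ V, s⁻¹ ∈ V := by
    rintro s (hs | ⟨⟨i, b⟩, rfl⟩)
    · rw [Set.mem_singleton_iff] at hs; rw [hs, inv_one]; exact Or.inl rfl
    · right
      refine ⟨(i, !b), ?_⟩
      cases b <;> simp [letter]
  have hVof : ∀ i, φ (FreeGroup.of i) ∈ V := fun i => Or.inr ⟨(i, true), rfl⟩
  -- length of the relators
  obtain ⟨ρ, hρ2, hρ⟩ : ∃ ρ : ℕ, 2 ≤ ρ ∧ ∀ r ∈ R, r.toWord.length ≤ ρ := by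
    obtain ⟨b, hb⟩ := (hRfin.image fun r : FreeGroup (Fin d) => r.toWord.length).bddAbove
    exact ⟨max 2 b, le_max_left _ _, fun r hr => (hb ⟨r, hr, rfl⟩).trans (le_max_right _ _)⟩
  set L : ℕ := 2 * ρ + 3 with hL
  obtain ⟨u, rfl⟩ := hφ g
  set l := u.toWord with hl
  have hu : FreeGroup.mk l = u := FreeGroup.mk_toWord
  -- invariance under V implies invariance under G
  have hinvG : ∀ F : Set Ω, (∀ y ∈ F, ∀ s ∈ V, s • y ∈ F) → ∀ (g : G), ∀ y ∈ F, g • y ∈ F := by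
    intro F hF g
    obtain ⟨w, rfl⟩ := hφ g
    have hw : FreeGroup.mk w.toWord = w := FreeGroup.mk_toWord
    rw [← hw, mk_eq_prod]
    generalize w.toWord = m
    induction m with
    | nil => intro y hy; simpa using hy
    | cons x m ih =>
      intro y hy
      rw [List.map_cons, List.prod_cons, mul_smul]
      exact hF _ (ih y hy) _ (Or.inr ⟨x, rfl⟩)
  by_cases hcase : ∃ F : Set Ω, F.Finite ∧ (∀ y ∈ F, ∀ s ∈ V, s • y ∈ F) ∧ ∃ x ∈ F, φ u • x ≠ x
  · obtain ⟨F, hF, hFinv, x, hx, hgx⟩ := hcase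
    exact of_invariant hF (hinvG F hFinv) (φ u) hx hgx
  push Not at hcase
  obtain ⟨M, hM⟩ := bdry_transfer (Ω := Ω) hgen hVfin
  set C' : ℕ := M * C with hC'
  obtain ⟨x₀, hx₀⟩ := hg.nonempty
  -- one step of the construction
  have step : ∀ K : {K : Set Ω // K.Finite ∧ x₀ ∈ K},
      ∃ (F : {K : Set Ω // K.Finite ∧ x₀ ∈ K}) (p : Fin C' → Ω) (y : Ω),
        (K : Set Ω) ⊆ F ∧ (∀ w ∈ V ^ (L + 1), ∀ z ∈ (K : Set Ω), w • z ∈ (F : Set Ω)) ∧
        Set.range p = {y | y ∈ (F : Set Ω) ∧ ∃ s ∈ V, s • y ∉ (F : Set Ω)} ∧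
        (∀ w ∈ V ^ l.length, w • y ∈ (F : Set Ω) \ K) ∧ φ u • y ≠ y := by
    rintro ⟨K, hK, hxK⟩
    have hfin1 : ((V ^ l.length) • K).Finite := (finite_pow hVfin _).smul hK
    obtain ⟨y, hy1, hy2⟩ := hg.exists_notMem_finite hfin1
    obtain ⟨F, hF, hKF, hFC⟩ := hcut (K ∪ (V ^ (L + 1)) • K ∪ (V ^ l.length) • {y})
      ((hK.union ((finite_pow hVfin _).smul hK)).union
        ((finite_pow hVfin _).smul (Set.finite_singleton y)))
    have hxF : x₀ ∈ F := hKF (Or.inl (Or.inl hxK))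
    have hbne : {y | y ∈ F ∧ ∃ s ∈ V, s • y ∉ F}.Nonempty := by
      by_contra hempty
      rw [Set.not_nonempty_iff_eq_empty] at hempty
      refine hx₀ (hcase F hF ?_ x₀ hxF)
      intro y hy s hs
      by_contra hsy
      have : y ∈ {y | y ∈ F ∧ ∃ s ∈ V, s • y ∉ F} := ⟨hy, s, hs, hsy⟩
      rw [hempty] at this
      exact this
    obtain ⟨p, hp⟩ := exists_enum (C := C') (hF.subset fun y hy => hy.1) hbne
      ((hM F hF).trans (Nat.mul_le_mul_left M hFC))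
    refine ⟨⟨F, hF, hxF⟩, p, y, fun z hz => hKF (Or.inl (Or.inl hz)), ?_, hp, ?_, hy1⟩
    · intro w hw z hz
      exact hKF (Or.inl (Or.inr (Set.smul_mem_smul hw hz)))
    · intro w hw
      refine ⟨hKF (Or.inr (Set.smul_mem_smul hw rfl)), fun hwK => hy2 ?_⟩
      have : w⁻¹ • (w • y) ∈ (V ^ l.length) • K :=
        Set.smul_mem_smul (Collar.inv_mem_pow hVinv _ _ hw) hwK
      rwa [inv_smul_smul] at this
  choose nxt pp yy h1 h2 h3 h4 h5 using step
  let E : ℕ → {K : Set Ω // K.Finite ∧ x₀ ∈ K} :=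
    fun n => Nat.rec ⟨{x₀}, Set.finite_singleton _, rfl⟩ (fun _ K => nxt K) n
  have hE : ∀ n, E (n + 1) = nxt (E n) := fun n => rfl
  have hmono : ∀ m n, m ≤ n → (E m).1 ⊆ (E n).1 := by
    intro m n hmn
    induction n, hmn using Nat.le_induction with
    | base => exact subset_rfl
    | succ n _ ih => rw [hE]; exact ih.trans (h1 _)
  -- pigeonhole
  have : Finite ↥(V ^ L) := (finite_pow hVfin L).to_subtype
  let code : ℕ → ((↥(V ^ L) × Fin C') → (↥(V ^ L) × Fin C') → Prop) ×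
      ((↥(V ^ L) × Fin C') → Prop) := fun n =>
    (fun a b => (a.1 : G) • pp (E n) a.2 = (b.1 : G) • pp (E n) b.2,
      fun a => (a.1 : G) • pp (E n) a.2 ∈ (E (n + 1)).1)
  obtain ⟨m, n, hmn, hcode⟩ : ∃ m n, m < n ∧ code m = code n := by
    obtain ⟨m, n, hne, hc⟩ := Finite.exists_ne_map_eq_of_infinite code
    rcases lt_or_gt_of_ne hne with h | h
    · exact ⟨m, n, h, hc⟩
    · exact ⟨n, m, h, hc.symm⟩
  have hc1 : ∀ a b : ↥(V ^ L) × Fin C',
      ((a.1 : G) • pp (E m) a.2 = (b.1 : G) • pp (E m) b.2) ↔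
      ((a.1 : G) • pp (E n) a.2 = (b.1 : G) • pp (E n) b.2) := fun a b =>
    iff_of_eq (congrFun (congrFun (congrArg Prod.fst hcode) a) b)
  have hc2 : ∀ a : ↥(V ^ L) × Fin C',
      ((a.1 : G) • pp (E m) a.2 ∈ (E (m + 1)).1) ↔
      ((a.1 : G) • pp (E n) a.2 ∈ (E (n + 1)).1) := fun a =>
    iff_of_eq (congrFun (congrArg Prod.snd hcode) a)
  have hcollar : Collar V ρ L (E (m + 1)).1 (E (n + 1)).1 (pp (E m)) (pp (E n)) :=
    { one_mem := hV1
      inv_mem := hVinv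
      hp := h3 (E m)
      hq := h3 (E n)
      heq := fun w hw w' hw' i j => hc1 (⟨w, hw⟩, i) (⟨w', hw'⟩, j)
      hmem := fun w hw i => hc2 (⟨w, hw⟩, i)
      hfar := fun w hw y hy => hmono (m + 2) (n + 1) (by omega) (h2 (E (m + 1)) w hw y hy)
      hL := le_rfl }
  obtain ⟨Φ, hΦ⟩ := glue hcollar hρ2 φ hφ R hR hρ hVof
  have : Finite ↥((E (n + 1)).1 \ (E (m + 1)).1) :=
    ((E (n + 1)).2.1.subset Set.sdiff_subset).to_subtype
  refine ⟨Φ.ker, inferInstance, inferInstance, fun hker => ?_⟩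
  have hin : ∀ w ∈ V ^ l.length, w • yy (E (m + 1)) ∈
      (E (n + 1)).1 \ (E (m + 1)).1 := by
    intro w hw
    have := h4 (E (m + 1)) w hw
    exact ⟨hmono (m + 2) (n + 1) (by omega) this.1, this.2⟩
  have hyin : yy (E (m + 1)) ∈ (E (n + 1)).1 \ (E (m + 1)).1 := by
    have := hin 1 (Set.one_mem_pow hV1)
    rwa [one_smul] at this
  have h6 := hΦ l ⟨yy (E (m + 1)), hyin⟩ hin
  rw [hu] at h6
  have h7 : Φ (φ u) = 1 := hker
  rw [h7] at h6
  exact h5 (E (m + 1)) h6.symm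

end Vale.Agent.P196
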