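import Vale.Agent.P196_h16.Growth

/-!
# Consequences
-/

set_option autoImplicit false

open Pointwise

namespace Vale.Agent.P196

universe u v

/-- A finitely presented group acting nontrivially with bounded cuts has a nontrivial finite
quotient. -/
theorem exists_proper {G : Type u} [Group G] [Group.IsFinitelyPresented G]
    {Ω : Type v} [MulAction G Ω] {S : Set G} (hgen : Subgroup.closure S = ⊤)
    (C : ℕ)
    (hcut : ∀ K : Set Ω, K.Finite → ∃ F : Set Ω, F.Finite ∧ K ⊆ F ∧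
      {y | y ∈ F ∧ ∃ s ∈ S, s • y ∉ F}.ncard ≤ C)
    {g : G} {x : Ω} (hgx : g • x ≠ x) :
    ∃ N : Subgroup G, N.Normal ∧ N.FiniteIndex ∧ N ≠ ⊤ := by
  by_cases hinf : ∃ h : G, {x : Ω | h • x ≠ x}.Infinite
  · obtain ⟨h, hh⟩ := hinf
    obtain ⟨N, h1, h2, h3⟩ := exists_finiteIndex hgen C hcut h hh
    exact ⟨N, h1, h2, fun h => h3 (by rw [h]; trivial)⟩
  · push Not at hinf
    obtain ⟨P⟩ := exists_presData G
    set F : Set Ω := ⋃ v ∈ P.V, {x : Ω | v • x ≠ x} with hF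
    have hFfin : F.Finite := P.V_finite.biUnion fun v _ => hinf v
    have hinv : ∀ y ∈ F, ∀ s ∈ P.V, s • y ∈ F := by
      intro y hy s hs
      by_cases h : s • y = y
      · rwa [h]
      · refine Set.mem_biUnion hs ?_
        change s • (s • y) ≠ s • y
        exact fun h' => h (MulAction.injective s h')
    have hxF : x ∈ F := by
      by_contra hx
      have hfix : ∀ v ∈ P.V, v • x = x := by
        intro v hv
        by_contra h
        exact hx (Set.mem_biUnion hv h)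
      apply hgx
      have := P.invariant {x} (by
        intro y hy s hs
        rw [Set.mem_singleton_iff] at hy ⊢
        rw [hy]; exact hfix s hs) g x rfl
      exact this
    obtain ⟨N, h1, h2, h3⟩ := of_invariant hFfin (P.invariant F hinv) g hxF hgx
    exact ⟨N, h1, h2, fun h => h3 (by rw [h]; trivial)⟩

theorem finite_of_simple {G : Type u} [Group G] [IsSimpleGroup G]
    (h : ∃ N : Subgroup G, N.Normal ∧ N.FiniteIndex ∧ N ≠ ⊤) : Finite G := by
  obtain ⟨N, h1, h2, h3⟩ := h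
  rcases h1.eq_bot_or_eq_top with h | h
  · subst h
    exact Subgroup.finite_quotient_of_finiteIndex (H := (⊥ : Subgroup G)) |> fun hfin =>
      Finite.of_equiv _ (QuotientGroup.quotientBot (G := G)).toEquiv
  · exact absurd h h3

/-- **Discrete gap theorem in terms of an arbitrary finite generating set.** -/
theorem ball_transfer {G : Type u} [Group G] {S : Set G} (hgen : Subgroup.closure S = ⊤)
    {V : Set G} (hV : V.Finite) :
    ∃ t : ℕ, 1 ≤ t ∧ V ⊆ ({1} ∪ S ∪ S⁻¹) ^ t := by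
  set S' : Set G := {1} ∪ S ∪ S⁻¹ with hS'
  have h1 : (1 : G) ∈ S' := Or.inl (Or.inl rfl)
  have hinv : ∀ s ∈ S', s⁻¹ ∈ S' := by
    rintro s ((hs | hs) | hs)
    · rw [Set.mem_singleton_iff] at hs; rw [hs, inv_one]; exact h1
    · right; rw [Set.mem_inv, inv_inv]; exact hs
    · left; right; exact hs
  have key : ∀ g : G, ∃ t : ℕ, g ∈ S' ^ t := by
    intro g
    have hg : g ∈ Subgroup.closure S := by rw [hgen]; trivial
    induction hg using Subgroup.closure_induction with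
    | mem x hx => exact ⟨1, by rw [pow_one]; exact Or.inl (Or.inr hx)⟩
    | one => exact ⟨0, by simp⟩
    | mul x y _ _ hx hy =>
      obtain ⟨a, ha⟩ := hx
      obtain ⟨b, hb⟩ := hy
      exact ⟨a + b, by rw [pow_add]; exact Set.mul_mem_mul ha hb⟩
    | inv x _ hx =>
      obtain ⟨a, ha⟩ := hx
      exact ⟨a, Collar.inv_mem_pow hinv _ _ ha⟩
  induction V, hV using Set.Finite.induction_on with
  | empty => exact ⟨1, le_rfl, Set.empty_subset _⟩
  | @insert a s _ hs ih =>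
    obtain ⟨t, ht1, ht⟩ := ih
    obtain ⟨t', ht'⟩ := key a
    refine ⟨t + t', by omega, ?_⟩
    intro z hz
    rcases Set.mem_insert_iff.1 hz with rfl | hz
    · exact Set.pow_subset_pow_right h1 (by omega) ht'
    · exact Set.pow_subset_pow_right h1 (by omega) (ht hz)

/-- **The gap theorem.** -/
theorem gap {G : Type u} [Group G] [Group.IsFinitelyPresented G]
    (hG : ∀ N : Subgroup G, N.Normal → N.FiniteIndex → N = ⊤)
    {S : Set G} (hS : S.Finite) (hgen : Subgroup.closure S = ⊤) :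
    ∃ c : ℝ, 0 < c ∧ ∃ n₀ : ℕ, ∀ (Ω : Type v) [MulAction G Ω] (x : Ω), (∃ g : G, g • x ≠ x) →
      ∀ n : ℕ, n₀ ≤ n → c * (n * Real.log n / Real.log (Real.log n)) ≤
        ((fun g : G => g • x) '' (({1} ∪ S ∪ S⁻¹) ^ n)).ncard := by
  obtain ⟨P⟩ := exists_presData G
  obtain ⟨t, ht1, ht⟩ := ball_transfer hgen P.V_finite
  set w : ℕ := (P.V ^ (2 * P.ρ + 3)).ncard with hw
  have hwpos : 0 < w := by
    rw [hw, Set.ncard_pos (finite_pow P.V_finite _)]
    exact ⟨1, Set.one_mem_pow P.one_mem⟩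
  set T : ℕ := t * (2 * P.ρ + 3 + 1) with hT
  have hTpos : 0 < T := Nat.mul_pos (by omega) (by omega)
  have hTR : (1 : ℝ) ≤ T := by exact_mod_cast hTpos
  have hwR : (1 : ℝ) ≤ w := by exact_mod_cast hwpos
  -- large `n`
  have hev : ∀ᶠ n : ℕ in Filter.atTop,
      (1 : ℝ) ≤ Real.log (Real.log n) ∧ (9 : ℝ) * T ^ 2 ≤ n := by
    have h1 : Filter.Tendsto (fun n : ℕ => Real.log (Real.log (n : ℝ)))
        Filter.atTop Filter.atTop :=
      Real.tendsto_log_atTop.comp (Real.tendsto_log_atTop.comp tendsto_natCast_atTop_atTop)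
    exact (h1.eventually_ge_atTop 1).and (tendsto_natCast_atTop_atTop.eventually_ge_atTop _)
  obtain ⟨n₀, hn₀⟩ := Filter.eventually_atTop.1 hev
  refine ⟨1 / (16 * w * T), by positivity, n₀, ?_⟩
  intro Ω _ x hx n hn
  obtain ⟨hll, hbig⟩ := hn₀ n hn
  set ℓ : ℝ := Real.log n with hℓ
  set m : ℝ := Real.log ℓ with hm
  have hn9 : (9 : ℝ) ≤ n := by nlinarith
  have hnpos : (0 : ℝ) < n := by linarith
  have hℓpos : 0 < ℓ := Real.log_pos (by linarith)
  have hℓm : m ≤ ℓ := by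
    have := Real.log_le_sub_one_of_pos hℓpos
    linarith
  have hmpos : 0 < m := by linarith
  set k : ℕ := ⌊ℓ / (4 * w * m)⌋₊ with hk
  set J : ℕ := n / T with hJ
  have hkle : (k : ℝ) ≤ ℓ / (4 * w * m) := Nat.floor_le (by positivity)
  have hklt : ℓ / (4 * w * m) < k + 1 := Nat.lt_floor_add_one _
  -- lower bound for `J`
  have hJR : (n : ℝ) / T - 1 ≤ J := by
    have h1 : (n : ℝ) < T * (J + 1) := by
      have : n < T * (J + 1) := by
        rw [hJ, mul_comm]
        exact Nat.lt_mul_of_div_lt (Nat.lt_succ_self _) hTpos |>.trans_le (by rw [mul_comm])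
      exact_mod_cast this
    have h2 : (n : ℝ) / T < J + 1 := by
      rw [div_lt_iff₀ (by linarith)]
      linarith
    linarith
  have hsq : Real.sqrt n * Real.sqrt n = n := Real.mul_self_sqrt hnpos.le
  have hsq3 : 3 * (T : ℝ) ≤ Real.sqrt n := by
    apply Real.le_sqrt_of_sq_le
    nlinarith
  have hJ2 : 2 * Real.sqrt n ≤ J := by
    have h1 : 3 * Real.sqrt n ≤ n / T := by
      rw [le_div_iff₀ (by linarith)]
      nlinarith [Real.sqrt_nonneg (n : ℝ)]
    nlinarith [Real.sqrt_nonneg (n : ℝ)]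
  -- the number of codes is at most `√n`
  have hcode : ((w * k : ℕ) : ℝ) ^ (w * k) * 2 ^ (w * k) ≤ Real.sqrt n := by
    rw [← mul_pow]
    have hwk : ((w * k : ℕ) : ℝ) ≤ ℓ / (4 * m) := by
      push_cast
      calc (w : ℝ) * k ≤ w * (ℓ / (4 * w * m)) := by gcongr
        _ = ℓ / (4 * m) := by field_simp
    have h1 : ((w * k : ℕ) : ℝ) * 2 ≤ ℓ := by
      have : ℓ / (4 * m) ≤ ℓ / 4 := by
        apply div_le_div_of_nonneg_left hℓpos.le (by norm_num) (by linarith)
      linarith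
    calc (((w * k : ℕ) : ℝ) * 2) ^ (w * k) ≤ ℓ ^ (w * k) :=
          pow_le_pow_left₀ (by positivity) h1 _
      _ = Real.exp (((w * k : ℕ) : ℝ) * m) := by
          rw [Real.exp_nat_mul, hm, Real.exp_log hℓpos]
      _ ≤ Real.exp (ℓ / 2) := by
          apply Real.exp_le_exp.2
          calc ((w * k : ℕ) : ℝ) * m ≤ ℓ / (4 * m) * m := by gcongr
            _ = ℓ / 4 := by field_simp
            _ ≤ ℓ / 2 := by linarith
      _ = Real.sqrt n := by
          rw [Real.sqrt_eq_rpow, Real.rpow_def_of_pos hnpos]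
          congr 1; ring
  have hJN : 2 * ((w * k) ^ (w * k) * 2 ^ (w * k)) ≤ J := by
    have : (2 : ℝ) * (((w * k : ℕ) : ℝ) ^ (w * k) * 2 ^ (w * k)) ≤ J :=
      (mul_le_mul_of_nonneg_left hcode (by norm_num)).trans hJ2
    exact_mod_cast this
  have hmain := gap_discrete P hG x hx w rfl k J hJN
  -- compare the balls
  have hsub : ball P.V x (J * (2 * P.ρ + 3 + 1)) ⊆
      (fun g : G => g • x) '' (({1} ∪ S ∪ S⁻¹) ^ n) := by
    apply Set.image_mono
    calc P.V ^ (J * (2 * P.ρ + 3 + 1)) ⊆ ((({1} ∪ S ∪ S⁻¹) ^ t)) ^ (J * (2 * P.ρ + 3 + 1)) :=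
          Set.pow_subset_pow_left ht
      _ = ({1} ∪ S ∪ S⁻¹) ^ (t * (J * (2 * P.ρ + 3 + 1))) := by rw [← pow_mul]
      _ ⊆ ({1} ∪ S ∪ S⁻¹) ^ n := by
          refine Set.pow_subset_pow_right (s := {1} ∪ S ∪ S⁻¹)
            (show (1 : G) ∈ {1} ∪ S ∪ S⁻¹ from Or.inl (Or.inl rfl)) ?_
          calc t * (J * (2 * P.ρ + 3 + 1)) = J * T := by rw [hT]; ring
            _ ≤ n := Nat.div_mul_le_self n T
  have hfin : ((fun g : G => g • x) '' (({1} ∪ S ∪ S⁻¹) ^ n)).Finite :=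
    (finite_pow (((Set.finite_singleton _).union hS).union hS.inv) n).image _
  have hcard := Set.ncard_le_ncard hsub hfin
  have hR : ((k : ℝ) + 1) * J ≤
      2 * (((fun g : G => g • x) '' (({1} ∪ S ∪ S⁻¹) ^ n)).ncard : ℝ) := by
    have : (k + 1) * J ≤ 2 * ((fun g : G => g • x) '' (({1} ∪ S ∪ S⁻¹) ^ n)).ncard :=
      hmain.trans (Nat.mul_le_mul_left 2 hcard)
    exact_mod_cast this
  have hJ3 : (n : ℝ) / (2 * T) ≤ J := by
    have h2 : (n : ℝ) / (2 * T) = n / T / 2 := by field_simp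
    have h3 : (2 : ℝ) ≤ n / T := by
      rw [le_div_iff₀ (by linarith)]
      nlinarith
    rw [h2]
    linarith
  have hfinal : ℓ / (4 * w * m) * (n / (2 * T)) ≤
      2 * (((fun g : G => g • x) '' (({1} ∪ S ∪ S⁻¹) ^ n)).ncard : ℝ) := by
    refine le_trans ?_ hR
    apply mul_le_mul hklt.le hJ3 (by positivity) (by positivity)
  have he : 1 / (16 * (w : ℝ) * T) * (n * ℓ / m) = ℓ / (4 * w * m) * (n / (2 * T)) / 2 := by
    field_simp
    ring
  rw [he]
  linarith

/-- Finitely presented simple groups of homeomorphisms whose orbit cocycle over `φ` is bounded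
are finite. -/
theorem full_group {X : Type u} (φ : Equiv.Perm X) {G : Type v} [Group G]
    [Group.IsFinitelyPresented G] [IsSimpleGroup G] [MulAction G X]
    (hb : ∀ g : G, ∃ M : ℕ, ∀ x : X, ∃ n : ℤ, |n| ≤ M ∧ g • x = (φ ^ n) x)
    {g₀ : G} {x₀ : X} (hx₀ : g₀ • x₀ ≠ x₀) : Finite G := by
  classical
  obtain ⟨P⟩ := exists_presData G
  -- a uniform bound for the displacement of the generators
  obtain ⟨M, hM⟩ : ∃ M : ℕ, ∀ s ∈ P.V, ∀ x : X, ∃ n : ℤ, |n| ≤ M ∧ s • x = (φ ^ n) x := by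
    choose M hM using hb
    obtain ⟨b, hb⟩ := (P.V_finite.image M).bddAbove
    refine ⟨b, fun s hs x => ?_⟩
    obtain ⟨n, hn, hx⟩ := hM s x
    exact ⟨n, hn.trans (by exact_mod_cast hb ⟨s, hs, rfl⟩), hx⟩
  -- the orbit of `x₀` under `φ`
  let T : SubMulAction G X := ⟨Set.range fun k : ℤ => (φ ^ k) x₀, by
    rintro g _ ⟨k, rfl⟩
    obtain ⟨M, hM⟩ := hb g
    obtain ⟨n, -, hn⟩ := hM ((φ ^ k) x₀)
    refine ⟨n + k, ?_⟩
    change (φ ^ (n + k)) x₀ = g • ((φ ^ k) x₀)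
    rw [hn, zpow_add, Equiv.Perm.mul_apply]⟩
  have hgen : Subgroup.closure P.V = ⊤ := by
    rw [eq_top_iff]
    intro g _
    have := P.invariant (Ω := G) (Subgroup.closure P.V : Set G) (by
      intro y hy s hs
      exact Subgroup.mul_mem _ (Subgroup.subset_closure hs) hy) g 1 (Subgroup.one_mem _)
    simpa using this
  have hx₀T : x₀ ∈ T := ⟨0, by simp⟩
  have hne : g₀ • (⟨x₀, hx₀T⟩ : T) ≠ ⟨x₀, hx₀T⟩ := fun h => hx₀ (congrArg Subtype.val h)
  refine finite_of_simple (exists_proper (Ω := T) hgen (2 * M) ?_ hne)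
  intro K hK
  -- choose a large window
  have hk : ∀ y : T, ∃ k : ℤ, (φ ^ k) x₀ = y := fun y => y.2
  choose κ hκ using hk
  obtain ⟨N, hN⟩ : ∃ N : ℕ, ∀ y ∈ K, |κ y| ≤ N := by
    obtain ⟨b, hb⟩ := (hK.image fun y => (κ y).natAbs).bddAbove
    refine ⟨b, fun y hy => ?_⟩
    have : (κ y).natAbs ≤ b := hb ⟨y, hy, rfl⟩
    rw [Int.abs_eq_natAbs]
    exact_mod_cast this
  let pt : ℤ → T := fun k => ⟨(φ ^ k) x₀, k, rfl⟩
  refine ⟨pt '' (Set.Icc (-N : ℤ) N), (Set.finite_Icc _ _).image _, ?_, ?_⟩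
  · intro y hy
    refine ⟨κ y, abs_le.1 (hN y hy), Subtype.ext (hκ y)⟩
  · have hsub : {y | y ∈ pt '' (Set.Icc (-N : ℤ) N) ∧
        ∃ s ∈ P.V, s • y ∉ pt '' (Set.Icc (-N : ℤ) N)} ⊆
        pt '' ((Set.Ico (-N : ℤ) (-N + M)) ∪ (Set.Ioc (N - M : ℤ) N)) := by
      rintro _ ⟨⟨k, hk, rfl⟩, s, hs, hsy⟩
      refine ⟨k, ?_, rfl⟩
      obtain ⟨n, hn, hx⟩ := hM s hs ((φ ^ k) x₀)
      have hnk : ¬ (-N ≤ n + k ∧ n + k ≤ N) := by
        intro h
        apply hsy
        refine ⟨n + k, h, Subtype.ext ?_⟩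
        change (φ ^ (n + k)) x₀ = s • ((φ ^ k) x₀)
        rw [hx, zpow_add, Equiv.Perm.mul_apply]
      rw [Set.mem_Icc] at hk
      rw [abs_le] at hn
      simp only [Set.mem_union, Set.mem_Ico, Set.mem_Ioc]
      omega
    have hfin : ((Set.Ico (-N : ℤ) (-N + M)) ∪ (Set.Ioc (N - M : ℤ) N)).Finite :=
      (Set.finite_Ico _ _).union (Set.finite_Ioc _ _)
    calc _ ≤ (pt '' ((Set.Ico (-N : ℤ) (-N + M)) ∪ (Set.Ioc (N - M : ℤ) N))).ncard :=
          Set.ncard_le_ncard hsub (hfin.image _)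
      _ ≤ ((Set.Ico (-N : ℤ) (-N + M)) ∪ (Set.Ioc (N - M : ℤ) N)).ncard :=
          Set.ncard_image_le hfin
      _ ≤ (Set.Ico (-N : ℤ) (-N + M)).ncard + (Set.Ioc (N - M : ℤ) N).ncard :=
          Set.ncard_union_le _ _
      _ = 2 * M := by
          rw [← Finset.coe_Ico, ← Finset.coe_Ioc, Set.ncard_coe_finset, Set.ncard_coe_finset,
            Int.card_Ico, Int.card_Ioc]
          omega

end Vale.Agent.P196
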