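import Mathlib

/-!
# Cutting and pasting an action of a finitely presented group

`G` acts on `Ω`, `F₁ ⊆ F₂` are finite subsets of `Ω` whose (collared) boundaries look the same.
We close up the annulus `F₂ \ F₁` and get an action of `G` on the finite set `F₂ \ F₁`.
-/

set_option autoImplicit false

open Pointwise

namespace Vale.Agent.P196

universe u v w

section Glue

variable {G : Type u} [Group G] {Ω : Type v} [MulAction G Ω] {ι : Type w}

open Classical in
/-- Send `w • p i` to `w • q i`. -/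
noncomputable def transport (W : Set G) (p q : ι → Ω) (z : Ω) : Ω :=
  if h : ∃ a : W × ι, z = (a.1 : G) • p a.2 then
    (h.choose.1 : G) • q h.choose.2 else z

theorem transport_eq {W : Set G} {p q : ι → Ω}
    (h2 : ∀ w ∈ W, ∀ w' ∈ W, ∀ i j, w • p i = w' • p j → w • q i = w' • q j)
    {w : G} (hw : w ∈ W) (i : ι) : transport W p q (w • p i) = w • q i := by
  have h : ∃ a : W × ι, w • p i = (a.1 : G) • p a.2 := ⟨(⟨w, hw⟩, i), rfl⟩
  unfold transport
  rw [dif_pos h]
  exact (h2 _ hw _ h.choose.1.2 _ _ h.choose_spec).symm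

/-- The hypotheses of the gluing construction. -/
structure Collar (V : Set G) (ρ L : ℕ) (F₁ F₂ : Set Ω) (p q : ι → Ω) : Prop where
  one_mem : (1 : G) ∈ V
  inv_mem : ∀ s ∈ V, s⁻¹ ∈ V
  hp : Set.range p = {y | y ∈ F₁ ∧ ∃ s ∈ V, s • y ∉ F₁}
  hq : Set.range q = {y | y ∈ F₂ ∧ ∃ s ∈ V, s • y ∉ F₂}
  heq : ∀ w ∈ V ^ L, ∀ w' ∈ V ^ L, ∀ i j, w • p i = w' • p j ↔ w • q i = w' • q j
  hmem : ∀ w ∈ V ^ L, ∀ i, w • p i ∈ F₁ ↔ w • q i ∈ F₂
  hfar : ∀ w ∈ V ^ (L + 1), ∀ y ∈ F₁, w • y ∈ F₂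
  hL : 2 * ρ + 3 ≤ L

namespace Collar

variable {V : Set G} {ρ L : ℕ} {F₁ F₂ : Set Ω} {p q : ι → Ω}

theorem inv_mem_pow {V : Set G} (h : ∀ s ∈ V, s⁻¹ ∈ V) :
    ∀ (k : ℕ) (g : G), g ∈ V ^ k → g⁻¹ ∈ V ^ k := by
  intro k
  induction k with
  | zero => intro g hg; simp at hg ⊢; exact hg
  | succ k ih =>
    intro g hg
    rw [pow_succ] at hg
    obtain ⟨a, ha, b, hb, rfl⟩ := Set.mem_mul.1 hg
    rw [pow_succ', mul_inv_rev]
    exact Set.mul_mem_mul (h b hb) (ih a ha)

theorem mono (c : Collar V ρ L F₁ F₂ p q) {m n : ℕ} (h : m ≤ n) {g : G} (hg : g ∈ V ^ m) :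
    g ∈ V ^ n := Set.pow_subset_pow_right c.one_mem h hg

theorem mem_one (c : Collar V ρ L F₁ F₂ p q) {n : ℕ} (h : 1 ≤ n) {g : G} (hg : g ∈ V) :
    g ∈ V ^ n := c.mono h (by simpa using hg)

theorem q_mem (c : Collar V ρ L F₁ F₂ p q) (i : ι) : q i ∈ F₂ ∧ ∃ s ∈ V, s • q i ∉ F₂ := by
  have : q i ∈ Set.range q := ⟨i, rfl⟩
  rw [c.hq] at this
  exact this

theorem p_mem (c : Collar V ρ L F₁ F₂ p q) (i : ι) : p i ∈ F₁ ∧ ∃ s ∈ V, s • p i ∉ F₁ := by
  have : p i ∈ Set.range p := ⟨i, rfl⟩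
  rw [c.hp] at this
  exact this

/-- The outer collar does not meet `F₁`. -/
theorem q_notMem (c : Collar V ρ L F₁ F₂ p q) {g : G} (hg : g ∈ V ^ L) (i : ι) :
    g • q i ∉ F₁ := by
  intro h
  obtain ⟨-, s, hs, hsq⟩ := c.q_mem i
  apply hsq
  have h1 : s * g⁻¹ ∈ V ^ (L + 1) := by
    rw [pow_succ']
    exact Set.mul_mem_mul hs (inv_mem_pow c.inv_mem _ _ hg)
  have := c.hfar _ h1 _ h
  rwa [mul_smul, inv_smul_smul] at this

/-- The inner collar lies in `F₂`. -/
theorem p_in (c : Collar V ρ L F₁ F₂ p q) {g : G} (hg : g ∈ V ^ L) (i : ι) :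
    g • p i ∈ F₂ :=
  c.hfar _ (c.mono (Nat.le_succ L) hg) _ (c.p_mem i).1

theorem tin_eq (c : Collar V ρ L F₁ F₂ p q) {g : G} (hg : g ∈ V ^ L) (i : ι) :
    transport (V ^ L) q p (g • q i) = g • p i :=
  transport_eq (fun w hw w' hw' i j h => (c.heq w hw w' hw' i j).2 h) hg i

theorem tout_eq (c : Collar V ρ L F₁ F₂ p q) {g : G} (hg : g ∈ V ^ L) (i : ι) :
    transport (V ^ L) p q (g • p i) = g • q i :=
  transport_eq (fun w hw w' hw' i j h => (c.heq w hw w' hw' i j).1 h) hg i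

end Collar

open Classical in
/-- The glued action of an element `s` on the closed-up annulus. -/
noncomputable def stepFun (W : Set G) (F₁ F₂ : Set Ω) (p q : ι → Ω) (s : G) (y : Ω) : Ω :=
  if s • y ∉ F₂ then transport W q p (s • y)
  else if s • y ∈ F₁ then transport W p q (s • y) else s • y

open Classical in
/-- The chart around the cut. -/
noncomputable def chart (W : Set G) (F₂ : Set Ω) (p q : ι → Ω) (z : Ω) : Ω :=
  if z ∈ F₂ then z else transport W q p z

namespace Collar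

variable {V : Set G} {ρ L : ℕ} {F₁ F₂ : Set Ω} {p q : ι → Ω}

theorem step_inner {s : G} {y : Ω} (h1 : s • y ∈ F₂) (h2 : s • y ∉ F₁) :
    stepFun (V ^ L) F₁ F₂ p q s y = s • y := by
  unfold stepFun
  rw [if_neg (not_not.2 h1), if_neg h2]

theorem step_mem (c : Collar V ρ L F₁ F₂ p q) {s : G} (hs : s ∈ V) {y : Ω}
    (hy : y ∈ F₂ \ F₁) : stepFun (V ^ L) F₁ F₂ p q s y ∈ F₂ \ F₁ := by
  have hL := c.hL
  by_cases h1 : s • y ∉ F₂
  · have hyq : y ∈ Set.range q := by
      rw [c.hq]; exact ⟨hy.1, s, hs, h1⟩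
    obtain ⟨i, rfl⟩ := hyq
    have hsL : s ∈ V ^ L := c.mem_one (by omega) hs
    have : stepFun (V ^ L) F₁ F₂ p q s (q i) = s • p i := by
      unfold stepFun
      rw [if_pos h1, c.tin_eq hsL]
    rw [this]
    refine ⟨c.p_in hsL i, fun h => h1 ((c.hmem s hsL i).1 h)⟩
  · rw [not_not] at h1
    by_cases h2 : s • y ∈ F₁
    · have hyp : s • y ∈ Set.range p := by
        rw [c.hp]
        refine ⟨h2, s⁻¹, c.inv_mem s hs, ?_⟩
        rw [inv_smul_smul]
        exact hy.2
      obtain ⟨i, hi⟩ := hyp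
      have h1L : (1 : G) ∈ V ^ L := c.mem_one (by omega) c.one_mem
      have : stepFun (V ^ L) F₁ F₂ p q s y = q i := by
        unfold stepFun
        rw [if_neg (not_not.2 h1), if_pos h2, ← hi]
        have := c.tout_eq h1L i
        rwa [one_smul, one_smul] at this
      rw [this]
      refine ⟨(c.q_mem i).1, ?_⟩
      have := c.q_notMem h1L i
      rwa [one_smul] at this
    · rw [step_inner h1 h2]
      exact ⟨h1, h2⟩

/-- The chart around the cut is equivariant. -/
theorem chart_step (c : Collar V ρ L F₁ F₂ p q) {g s : G} (hs : s ∈ V) {k : ℕ} (hk : k + 1 ≤ L)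
    (hg : g ∈ V ^ k) (i : ι) :
    chart (V ^ L) F₂ p q (s • g • q i) =
      stepFun (V ^ L) F₁ F₂ p q s (chart (V ^ L) F₂ p q (g • q i)) := by
  have hgL : g ∈ V ^ L := c.mono (by omega) hg
  have hsgL : s * g ∈ V ^ L := by
    refine c.mono hk ?_
    rw [pow_succ']
    exact Set.mul_mem_mul hs hg
  by_cases h1 : g • q i ∈ F₂
  · have e1 : chart (V ^ L) F₂ p q (g • q i) = g • q i := by
      unfold chart; rw [if_pos h1]
    rw [e1]
    by_cases h2 : s • g • q i ∈ F₂
    · have e2 : chart (V ^ L) F₂ p q (s • g • q i) = s • g • q i := by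
        unfold chart; rw [if_pos h2]
      rw [e2, step_inner h2]
      rw [← mul_smul]
      exact c.q_notMem hsgL i
    · unfold chart stepFun
      rw [if_neg h2, if_pos h2]
  · have e1 : chart (V ^ L) F₂ p q (g • q i) = g • p i := by
      unfold chart; rw [if_neg h1, c.tin_eq hgL]
    rw [e1]
    have hin : s • g • p i ∈ F₂ := by
      rw [← mul_smul]; exact c.p_in hsgL i
    by_cases h2 : s • g • q i ∈ F₂
    · have e2 : chart (V ^ L) F₂ p q (s • g • q i) = s • g • q i := by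
        unfold chart; rw [if_pos h2]
      rw [e2]
      have h3 : s • g • p i ∈ F₁ := by
        rw [← mul_smul] at h2 ⊢
        exact (c.hmem _ hsgL i).2 h2
      unfold stepFun
      rw [if_neg (not_not.2 hin), if_pos h3, ← mul_smul, ← mul_smul, c.tout_eq hsgL]
    · have h3 : s • g • p i ∉ F₁ := by
        rw [← mul_smul] at h2 ⊢
        exact fun h => h2 ((c.hmem _ hsgL i).1 h)
      rw [step_inner hin h3]
      unfold chart
      rw [if_neg h2, ← mul_smul, ← mul_smul, c.tin_eq hsgL]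

theorem cross_out (c : Collar V ρ L F₁ F₂ p q) :
    ∀ (k : ℕ) (g : G) (a : Ω), g ∈ V ^ k → a ∈ F₂ → g • a ∉ F₂ →
      ∃ h ∈ V ^ k, ∃ i, a = h • q i := by
  intro k
  induction k with
  | zero =>
    intro g a hg ha hga
    exfalso
    rw [pow_zero, Set.mem_one] at hg
    rw [hg, one_smul] at hga
    exact hga ha
  | succ k ih =>
    intro g a hg ha hga
    rw [pow_succ] at hg
    obtain ⟨g', hg', s, hs, rfl⟩ := Set.mem_mul.1 hg
    by_cases h1 : s • a ∈ F₂
    · obtain ⟨h, hh, i, hi⟩ := ih g' (s • a) hg' h1 (by rwa [← mul_smul])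
      refine ⟨s⁻¹ * h, ?_, i, ?_⟩
      · rw [pow_succ']
        exact Set.mul_mem_mul (c.inv_mem s hs) hh
      · rw [mul_smul, ← hi, inv_smul_smul]
    · have : a ∈ Set.range q := by
        rw [c.hq]; exact ⟨ha, s, hs, h1⟩
      obtain ⟨i, rfl⟩ := this
      refine ⟨1, c.mem_one (by omega) c.one_mem, i, by rw [one_smul]⟩

theorem cross_in (c : Collar V ρ L F₁ F₂ p q) :
    ∀ (k : ℕ) (g : G) (a : Ω), g ∈ V ^ k → a ∉ F₁ → g • a ∈ F₁ →
      ∃ h ∈ V ^ k, ∃ i, a = h • p i := by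
  intro k
  induction k with
  | zero =>
    intro g a hg ha hga
    exfalso
    rw [pow_zero, Set.mem_one] at hg
    rw [hg, one_smul] at hga
    exact ha hga
  | succ k ih =>
    intro g a hg ha hga
    rw [pow_succ] at hg
    obtain ⟨g', hg', s, hs, rfl⟩ := Set.mem_mul.1 hg
    by_cases h1 : s • a ∈ F₁
    · have : s • a ∈ Set.range p := by
        rw [c.hp]
        refine ⟨h1, s⁻¹, c.inv_mem s hs, ?_⟩
        rwa [inv_smul_smul]
      obtain ⟨i, hi⟩ := this
      refine ⟨s⁻¹, c.mem_one (by omega) (c.inv_mem s hs), i, ?_⟩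
      rw [hi, inv_smul_smul]
    · obtain ⟨h, hh, i, hi⟩ := ih g' (s • a) hg' h1 (by rwa [← mul_smul])
      refine ⟨s⁻¹ * h, ?_, i, ?_⟩
      · rw [pow_succ']
        exact Set.mul_mem_mul (c.inv_mem s hs) hh
      · rw [mul_smul, ← hi, inv_smul_smul]

/-- Around every point of the closed-up annulus there is an equivariant chart from `Ω`. -/
theorem exists_chart (c : Collar V ρ L F₁ F₂ p q) {a : Ω} (ha : a ∈ F₂ \ F₁) :
    ∃ (f : Ω → Ω) (ω : Ω), f ω = a ∧ ∀ g ∈ V ^ ρ, ∀ s ∈ V,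
      f (s • g • ω) = stepFun (V ^ L) F₁ F₂ p q s (f (g • ω)) := by
  have hL := c.hL
  by_cases hA : ∀ g ∈ V ^ (ρ + 1), g • a ∈ F₂ ∧ g • a ∉ F₁
  · refine ⟨id, a, rfl, fun g hg s hs => ?_⟩
    have h1 : s * g ∈ V ^ (ρ + 1) := by
      rw [pow_succ']; exact Set.mul_mem_mul hs hg
    have h2 := hA _ h1
    rw [mul_smul] at h2
    simp only [id]
    rw [step_inner h2.1 h2.2]
  · push Not at hA
    obtain ⟨g, hg, hga⟩ := hA
    by_cases h1 : g • a ∈ F₂
    · have h2 : g • a ∈ F₁ := hga h1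
      obtain ⟨h, hh, i, rfl⟩ := c.cross_in _ g a hg ha.2 h2
      have hhL : h ∈ V ^ L := c.mono (by omega) hh
      refine ⟨chart (V ^ L) F₂ p q, h • q i, ?_, fun g hg s hs => ?_⟩
      · unfold chart
        rw [if_neg, c.tin_eq hhL]
        exact fun h' => ha.2 ((c.hmem h hhL i).2 h')
      · have h3 : g * h ∈ V ^ (ρ + (ρ + 1)) := by
          rw [pow_add]; exact Set.mul_mem_mul hg hh
        have := c.chart_step hs (k := ρ + (ρ + 1)) (by omega) h3 i
        rwa [mul_smul] at this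
    · obtain ⟨h, hh, i, rfl⟩ := c.cross_out _ g a hg ha.1 h1
      refine ⟨chart (V ^ L) F₂ p q, h • q i, ?_, fun g hg s hs => ?_⟩
      · unfold chart
        rw [if_pos ha.1]
      · have h3 : g * h ∈ V ^ (ρ + (ρ + 1)) := by
          rw [pow_add]; exact Set.mul_mem_mul hg hh
        have := c.chart_step hs (k := ρ + (ρ + 1)) (by omega) h3 i
        rwa [mul_smul] at this

theorem prod_mem_pow (V : Set G) : ∀ (l : List G), (∀ s ∈ l, s ∈ V) → l.prod ∈ V ^ l.length := by
  intro l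
  induction l with
  | nil => intro _; simp
  | cons s l ih =>
    intro h
    rw [List.prod_cons, List.length_cons, pow_succ']
    exact Set.mul_mem_mul (h s (by simp)) (ih fun t ht => h t (by simp [ht]))

/-- Short relations of `G` hold in the closed-up annulus. -/
theorem foldr_eq (c : Collar V ρ L F₁ F₂ p q) {a : Ω} (ha : a ∈ F₂ \ F₁) (l : List G)
    (hl : ∀ s ∈ l, s ∈ V) (hlen : l.length ≤ ρ) (hprod : l.prod = 1) :
    l.foldr (stepFun (V ^ L) F₁ F₂ p q) a = a := by
  obtain ⟨f, ω, hω, hf⟩ := c.exists_chart ha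
  have key : ∀ l : List G, (∀ s ∈ l, s ∈ V) → l.length ≤ ρ →
      l.foldr (stepFun (V ^ L) F₁ F₂ p q) a = f (l.prod • ω) := by
    intro l
    induction l with
    | nil => intro _ _; simp [hω]
    | cons s l ih =>
      intro hl hlen
      rw [List.foldr_cons, ih (fun t ht => hl t (by simp [ht])) (by simp at hlen; omega),
        List.prod_cons, mul_smul]
      rw [hf]
      · exact c.mono (by simp at hlen; omega)
          (prod_mem_pow V l (fun t ht => hl t (by simp [ht])))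
      · exact hl s (by simp)
  rw [key l hl hlen, hprod, one_smul, hω]

/-- Deep inside the annulus the glued action is the old one. -/
theorem foldr_inner (V : Set G) (a : Ω) : ∀ (l : List G),
    (∀ s ∈ l, s ∈ V) → (1 : G) ∈ V →
    (∀ g ∈ V ^ l.length, g • a ∈ F₂ \ F₁) →
    l.foldr (stepFun (V ^ L) F₁ F₂ p q) a = l.prod • a := by
  intro l
  induction l with
  | nil => intro _ _ _; simp
  | cons s l ih =>
    intro hl h1 hin
    rw [List.foldr_cons, ih (fun t ht => hl t (by simp [ht])) h1, List.prod_cons, mul_smul]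
    · have : s * l.prod ∈ V ^ (s :: l).length := by
        rw [List.length_cons, pow_succ']
        exact Set.mul_mem_mul (hl s (by simp))
          (prod_mem_pow V l (fun t ht => hl t (by simp [ht])))
      have h2 := hin _ this
      rw [mul_smul] at h2
      rw [step_inner h2.1 h2.2]
    · intro g hg
      exact hin g (Set.pow_subset_pow_right h1 (by simp) hg)

/-- The glued action of `s` as a permutation of the annulus. -/
noncomputable def stepPerm (c : Collar V ρ L F₁ F₂ p q) (hρ : 2 ≤ ρ) (s : V) :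
    Equiv.Perm ↥(F₂ \ F₁) where
  toFun y := ⟨stepFun (V ^ L) F₁ F₂ p q s y, c.step_mem s.2 y.2⟩
  invFun y := ⟨stepFun (V ^ L) F₁ F₂ p q (s : G)⁻¹ y, c.step_mem (c.inv_mem s s.2) y.2⟩
  left_inv y := by
    apply Subtype.ext
    have := c.foldr_eq y.2 [(s : G)⁻¹, s]
      (by intro t ht; simp at ht; rcases ht with rfl | rfl; exacts [c.inv_mem s s.2, s.2])
      (by simpa using hρ) (by simp)
    simpa using this
  right_inv y := by
    apply Subtype.ext
    have := c.foldr_eq y.2 [(s : G), (s : G)⁻¹]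
      (by intro t ht; simp at ht; rcases ht with rfl | rfl; exacts [s.2, c.inv_mem s s.2])
      (by simpa using hρ) (by simp)
    simpa using this

end Collar

/-- The value of a letter. -/
def letter {d : ℕ} (a : Fin d → G) (x : Fin d × Bool) : G :=
  bif x.2 then a x.1 else (a x.1)⁻¹

theorem mk_eq_prod {d : ℕ} (φ : FreeGroup (Fin d) →* G) (l : List (Fin d × Bool)) :
    φ (FreeGroup.mk l) = (l.map (letter fun i => φ (FreeGroup.of i))).prod := by
  have : φ = FreeGroup.lift (fun i => φ (FreeGroup.of i)) := by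
    ext i; simp
  conv_lhs => rw [this]
  rw [FreeGroup.lift_mk]
  rfl

/-- **The gluing theorem.** -/
theorem glue {V : Set G} {ρ L : ℕ} {F₁ F₂ : Set Ω} {p q : ι → Ω}
    (c : Collar V ρ L F₁ F₂ p q) (hρ : 2 ≤ ρ) {d : ℕ} (φ : FreeGroup (Fin d) →* G)
    (hφ : Function.Surjective φ) (R : Set (FreeGroup (Fin d)))
    (hR : Subgroup.normalClosure R = φ.ker) (hRlen : ∀ r ∈ R, r.toWord.length ≤ ρ)
    (hV : ∀ i, φ (FreeGroup.of i) ∈ V) :
    ∃ Φ : G →* Equiv.Perm ↥(F₂ \ F₁), ∀ (l : List (Fin d × Bool)) (a : ↥(F₂ \ F₁)),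
      (∀ g ∈ V ^ l.length, g • (a : Ω) ∈ F₂ \ F₁) →
        ((Φ (φ (FreeGroup.mk l)) a : ↥(F₂ \ F₁)) : Ω) = φ (FreeGroup.mk l) • (a : Ω) := by
  set t : Fin d → Equiv.Perm ↥(F₂ \ F₁) :=
    fun i => c.stepPerm hρ ⟨φ (FreeGroup.of i), hV i⟩ with ht
  set Φ₀ : FreeGroup (Fin d) →* Equiv.Perm ↥(F₂ \ F₁) := FreeGroup.lift t with hΦ₀
  have hlet : ∀ x : Fin d × Bool, letter (fun i => φ (FreeGroup.of i)) x ∈ V := by
    rintro ⟨i, b⟩
    cases b
    · exact c.inv_mem _ (hV i)
    · exact hV i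
  have hletter : ∀ (x : Fin d × Bool) (y : ↥(F₂ \ F₁)),
      (((bif x.2 then t x.1 else (t x.1)⁻¹) y : ↥(F₂ \ F₁)) : Ω) =
        stepFun (V ^ L) F₁ F₂ p q (letter (fun i => φ (FreeGroup.of i)) x) y := by
    rintro ⟨i, b⟩ y
    cases b <;> rfl
  have hword : ∀ (l : List (Fin d × Bool)) (y : ↥(F₂ \ F₁)),
      ((Φ₀ (FreeGroup.mk l) y : ↥(F₂ \ F₁)) : Ω) =
        (l.map (letter fun i => φ (FreeGroup.of i))).foldr
          (stepFun (V ^ L) F₁ F₂ p q) y := by
    intro l y
    rw [hΦ₀, FreeGroup.lift_mk]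
    induction l with
    | nil => simp
    | cons x l ih =>
      rw [List.map_cons, List.prod_cons, Equiv.Perm.mul_apply, List.map_cons, List.foldr_cons,
        ← ih, hletter]
  have hker : φ.ker ≤ Φ₀.ker := by
    rw [← hR]
    apply Subgroup.normalClosure_le_normal
    intro r hr
    change Φ₀ r = 1
    apply Equiv.ext
    intro y
    apply Subtype.ext
    rw [← FreeGroup.mk_toWord (x := r), hword]
    have hr1 : φ r = 1 := by
      have : r ∈ φ.ker := by rw [← hR]; exact Subgroup.subset_normalClosure hr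
      exact this
    have := c.foldr_eq y.2 (r.toWord.map (letter fun i => φ (FreeGroup.of i)))
      (by
        intro s hs
        rw [List.mem_map] at hs
        obtain ⟨x, -, rfl⟩ := hs
        exact hlet x)
      (by rw [List.length_map]; exact hRlen r hr)
      (by rw [← mk_eq_prod, FreeGroup.mk_toWord, hr1])
    simpa using this
  refine ⟨φ.liftOfSurjective hφ ⟨Φ₀, hker⟩, fun l a hin => ?_⟩
  have e : (φ.liftOfSurjective hφ ⟨Φ₀, hker⟩) (φ (FreeGroup.mk l)) = Φ₀ (FreeGroup.mk l) :=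
    MonoidHom.liftOfRightInverse_comp_apply φ _ (Function.rightInverse_surjInv hφ) ⟨Φ₀, hker⟩ _
  rw [e, hword, Collar.foldr_inner V, mk_eq_prod]
  · intro s hs
    rw [List.mem_map] at hs
    obtain ⟨x, -, rfl⟩ := hs
    exact hlet x
  · exact c.one_mem
  · intro g hg
    rw [List.length_map] at hg
    exact hin g hg

end Glue

end Vale.Agent.P196
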