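import Vale.Agent.P196_h16.Cuts

/-!
# Growth of orbits of finitely presented groups without finite quotients
-/

set_option autoImplicit false

open Pointwise

namespace Vale.Agent.P196

universe u v

section Balls

variable {G : Type u} [Group G] {Ω : Type v} [MulAction G Ω]

/-- The ball of radius `n` around `x` in the Schreier graph. -/
def ball (V : Set G) (x : Ω) (n : ℕ) : Set Ω := (fun g : G => g • x) '' (V ^ n)

theorem ball_finite {V : Set G} (hV : V.Finite) (x : Ω) (n : ℕ) : (ball V x n).Finite :=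
  (finite_pow hV n).image _

theorem ball_mono {V : Set G} (h1 : (1 : G) ∈ V) (x : Ω) {m n : ℕ} (h : m ≤ n) :
    ball V x m ⊆ ball V x n :=
  Set.image_mono (Set.pow_subset_pow_right h1 h)

theorem smul_mem_ball {V : Set G} (x : Ω) {m n : ℕ} {g : G} (hg : g ∈ V ^ m) {y : Ω}
    (hy : y ∈ ball V x n) : g • y ∈ ball V x (m + n) := by
  obtain ⟨h, hh, rfl⟩ := hy
  refine ⟨g * h, ?_, mul_smul _ _ _⟩
  rw [pow_add]
  exact Set.mul_mem_mul hg hh

theorem smul_mem_ball_succ {V : Set G} (x : Ω) {n : ℕ} {g : G} (hg : g ∈ V) {y : Ω}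
    (hy : y ∈ ball V x n) : g • y ∈ ball V x (n + 1) := by
  have := smul_mem_ball x (m := 1) (by simpa using hg) hy
  rwa [add_comm] at this

theorem mem_ball_self {V : Set G} (h1 : (1 : G) ∈ V) (x : Ω) (n : ℕ) : x ∈ ball V x n :=
  ⟨1, Set.one_mem_pow h1, one_smul _ _⟩

/-- The inner boundary. -/
def bdry (V : Set G) (F : Set Ω) : Set Ω := {y | y ∈ F ∧ ∃ s ∈ V, s • y ∉ F}

theorem bdry_ball {V : Set G} (x : Ω) {n : ℕ} {y : Ω}
    (hy : y ∈ bdry V (ball V x (n + 1))) : y ∉ ball V x n := by
  obtain ⟨-, s, hs, hsy⟩ := hy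
  exact fun h => hsy (smul_mem_ball_succ x hs h)

end Balls

/-- The type of codes of collars with at most `k` boundary points. -/
abbrev Code (w k : ℕ) : Type := (Fin w × Fin k → Fin (w * k)) × (Fin w × Fin k → Bool)

theorem card_code (w k : ℕ) :
    Fintype.card (Code w k) = (w * k) ^ (w * k) * 2 ^ (w * k) := by
  simp [Code]

section Pigeon

variable {G : Type u} [Group G] {Ω : Type v} [MulAction G Ω]

/-- A collar can be encoded. -/
theorem exists_code {W : Set G} (w : ℕ) (e : W ≃ Fin w) (k : ℕ) (F : Set Ω) (p : Fin k → Ω) :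
    ∃ c : Code w k, (∀ (a b : W) (i j : Fin k),
      ((a : G) • p i = (b : G) • p j ↔ c.1 (e a, i) = c.1 (e b, j))) ∧
      (∀ (a : W) (i : Fin k), ((a : G) • p i ∈ F ↔ c.2 (e a, i) = true)) := by
  classical
  let f : Fin w × Fin k → Ω := fun z => ((e.symm z.1 : W) : G) • p z.2
  -- inject the range of `f` in `Fin (w * k)`
  obtain ⟨g, hg⟩ : ∃ g : Set.range f → Fin (w * k), Function.Injective g := by
    have hcard : Fintype.card (Set.range f) ≤ Fintype.card (Fin (w * k)) := by
      refine (Fintype.card_range_le f).trans ?_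
      simp
    obtain ⟨g⟩ := Function.Embedding.nonempty_of_card_le hcard
    exact ⟨g, g.injective⟩
  refine ⟨(fun z => g ⟨f z, z, rfl⟩, fun z => decide (f z ∈ F)), ?_, ?_⟩
  · intro a b i j
    have ha : f (e a, i) = (a : G) • p i := by simp [f]
    have hb : f (e b, j) = (b : G) • p j := by simp [f]
    constructor
    · intro h
      have : f (e a, i) = f (e b, j) := by rw [ha, hb, h]
      simp [this]
    · intro h
      have := congrArg Subtype.val (hg h)
      simp only at this
      rw [← ha, ← hb, this]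
  · intro a i
    have ha : f (e a, i) = (a : G) • p i := by simp [f]
    simp [ha]

end Pigeon

/-- Choose the data of a finite presentation in a convenient form. -/
structure PresData (G : Type u) [Group G] where
  d : ℕ
  φ : FreeGroup (Fin d) →* G
  surj : Function.Surjective φ
  R : Set (FreeGroup (Fin d))
  ker : Subgroup.normalClosure R = φ.ker
  ρ : ℕ
  two_le : 2 ≤ ρ
  len : ∀ r ∈ R, r.toWord.length ≤ ρ

theorem exists_presData (G : Type u) [Group G] [hG : Group.IsFinitelyPresented G] :
    Nonempty (PresData G) := by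
  classical
  obtain ⟨d, φ, hφ, R, hRfin, hR⟩ := hG.out
  obtain ⟨b, hb⟩ := (hRfin.image fun r : FreeGroup (Fin d) => r.toWord.length).bddAbove
  exact ⟨⟨d, φ, hφ, R, hR, max 2 b, le_max_left _ _,
    fun r hr => (hb ⟨r, hr, rfl⟩).trans (le_max_right _ _)⟩⟩

namespace PresData

variable {G : Type u} [Group G] (P : PresData G)

/-- The alphabet. -/
def V : Set G := {1} ∪ Set.range (letter fun i => P.φ (FreeGroup.of i))

theorem V_finite : P.V.Finite := (Set.finite_singleton _).union (Set.finite_range _)

theorem one_mem : (1 : G) ∈ P.V := Or.inl rfl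

theorem inv_mem : ∀ s ∈ P.V, s⁻¹ ∈ P.V := by
  rintro s (hs | ⟨⟨i, b⟩, rfl⟩)
  · rw [Set.mem_singleton_iff] at hs; rw [hs, inv_one]; exact Or.inl rfl
  · right
    refine ⟨(i, !b), ?_⟩
    cases b <;> simp [letter]

theorem of_mem (i : Fin P.d) : P.φ (FreeGroup.of i) ∈ P.V := Or.inr ⟨(i, true), rfl⟩

theorem invariant {Ω : Type v} [MulAction G Ω] (F : Set Ω)
    (hF : ∀ y ∈ F, ∀ s ∈ P.V, s • y ∈ F) : ∀ (g : G), ∀ y ∈ F, g • y ∈ F := by
  classical
  intro g
  obtain ⟨w, rfl⟩ := P.surj g
  have hw : FreeGroup.mk w.toWord = w := FreeGroup.mk_toWord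
  rw [← hw, mk_eq_prod]
  generalize w.toWord = m
  induction m with
  | nil => intro y hy; simpa using hy
  | cons x m ih =>
    intro y hy
    rw [List.map_cons, List.prod_cons, mul_smul]
    exact hF _ (ih y hy) _ (Or.inr ⟨x, rfl⟩)

end PresData

/-- **Discrete form of the gap theorem.** -/
theorem gap_discrete {G : Type u} [Group G] (P : PresData G)
    (hG : ∀ N : Subgroup G, N.Normal → N.FiniteIndex → N = ⊤)
    {Ω : Type v} [MulAction G Ω] (x : Ω) (hx : ∃ g : G, g • x ≠ x) (w : ℕ)
    (hw : (P.V ^ (2 * P.ρ + 3)).ncard = w) (k J : ℕ)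
    (hJ : 2 * ((w * k) ^ (w * k) * 2 ^ (w * k)) ≤ J) :
    (k + 1) * J ≤ 2 * (ball P.V x (J * (2 * P.ρ + 3 + 1))).ncard := by
  classical
  set L : ℕ := 2 * P.ρ + 3 with hL
  set V := P.V with hV
  by_contra hcon
  push Not at hcon
  obtain ⟨g₀, hg₀⟩ := hx
  -- no finite invariant set contains `x`
  have hnoinv : ∀ n, (bdry V (ball V x n)).Nonempty := by
    intro n
    by_contra hempty
    rw [Set.not_nonempty_iff_eq_empty] at hempty
    have hinv : ∀ y ∈ ball V x n, ∀ s ∈ V, s • y ∈ ball V x n := by
      intro y hy s hs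
      by_contra hsy
      have : y ∈ bdry V (ball V x n) := ⟨hy, s, hs, hsy⟩
      rw [hempty] at this
      exact this
    obtain ⟨N, hN1, hN2, hN3⟩ := of_invariant (ball_finite P.V_finite x n) (P.invariant _ hinv) g₀
      (mem_ball_self P.one_mem x n) hg₀
    exact hN3 (by rw [hG N hN1 hN2]; trivial)
  let r : ℕ → ℕ := fun j => (j + 1) * (L + 1)
  let D : ℕ → Set Ω := fun j => bdry V (ball V x (r j))
  have hDfin : ∀ j, (D j).Finite := fun j => (ball_finite P.V_finite x _).subset fun y hy => hy.1
  have hrpos : ∀ j, r j = (r j - 1) + 1 := by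
    intro j
    have : 0 < r j := Nat.mul_pos (by omega) (by omega)
    omega
  have hDout : ∀ j, ∀ y ∈ D j, y ∉ ball V x (r j - 1) := by
    intro j y hy
    apply bdry_ball
    rw [← hrpos j]
    exact hy
  have hrlt : ∀ i j, i < j → r i + (L + 1) ≤ r j := by
    intro i j hij
    simp only [r]
    nlinarith
  have hDdisj : ∀ i j, i < j → Disjoint (D i) (D j) := by
    intro i j hij
    rw [Set.disjoint_left]
    intro y hy hy'
    apply hDout j y hy'
    have : r i ≤ r j - 1 := by have := hrlt i j hij; omega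
    exact ball_mono P.one_mem x this hy.1
  -- total size of the boundaries
  have hsum : ∀ n ≤ J, ∑ j ∈ Finset.range n, (D j).ncard ≤ (ball V x (n * (L + 1))).ncard := by
    intro n
    induction n with
    | zero => intro _; simp
    | succ n ih =>
      intro hn
      rw [Finset.sum_range_succ]
      have h1 : ball V x (n * (L + 1)) ∪ D n ⊆ ball V x ((n + 1) * (L + 1)) := by
        apply Set.union_subset
        · exact ball_mono P.one_mem x (Nat.mul_le_mul_right _ (by omega))
        · exact fun y hy => hy.1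
      have h2 : Disjoint (ball V x (n * (L + 1))) (D n) := by
        rw [Set.disjoint_left]
        intro y hy hy'
        apply hDout n y hy'
        refine ball_mono P.one_mem x ?_ hy
        simp only [r]
        have : n * (L + 1) + 1 ≤ (n + 1) * (L + 1) := by nlinarith
        omega
      calc ∑ j ∈ Finset.range n, (D j).ncard + (D n).ncard
          ≤ (ball V x (n * (L + 1))).ncard + (D n).ncard :=
            Nat.add_le_add_right (ih (by omega)) _
        _ = (ball V x (n * (L + 1)) ∪ D n).ncard :=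
            (Set.ncard_union_eq h2 (ball_finite P.V_finite x _) (hDfin n)).symm
        _ ≤ _ := Set.ncard_le_ncard h1 (ball_finite P.V_finite x _)
  -- many good radii
  let good : Finset ℕ := (Finset.range J).filter fun j => (D j).ncard ≤ k
  have hgood : Fintype.card (Code w k) < good.card := by
    rw [card_code]
    have h1 : good.card + ((Finset.range J).filter fun j => ¬ (D j).ncard ≤ k).card = J := by
      have := Finset.card_filter_add_card_filter_not (s := Finset.range J)
        (fun j => (D j).ncard ≤ k)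
      rwa [Finset.card_range] at this
    have h2 : (k + 1) * ((Finset.range J).filter fun j => ¬ (D j).ncard ≤ k).card ≤
        ∑ j ∈ Finset.range J, (D j).ncard := by
      calc (k + 1) * ((Finset.range J).filter fun j => ¬ (D j).ncard ≤ k).card
          = ∑ _j ∈ (Finset.range J).filter (fun j => ¬ (D j).ncard ≤ k), (k + 1) := by
            rw [Finset.sum_const, smul_eq_mul, mul_comm]
        _ ≤ ∑ j ∈ (Finset.range J).filter (fun j => ¬ (D j).ncard ≤ k), (D j).ncard := by
            apply Finset.sum_le_sum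
            intro j hj
            rw [Finset.mem_filter] at hj
            omega
        _ ≤ _ := Finset.sum_le_sum_of_subset (Finset.filter_subset _ _)
    have h3 := hsum J le_rfl
    set bad := ((Finset.range J).filter fun j => ¬ (D j).ncard ≤ k).card with hbad
    have h4 : (k + 1) * (2 * bad) < (k + 1) * J := by
      calc (k + 1) * (2 * bad) = 2 * ((k + 1) * bad) := by ring
        _ ≤ 2 * (ball V x (J * (L + 1))).ncard := by omega
        _ < (k + 1) * J := hcon
    have h5 : 2 * bad < J := Nat.lt_of_mul_lt_mul_left h4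
    omega
  -- codes
  have hWfin : (V ^ L).Finite := finite_pow P.V_finite L
  have hWcard : Nat.card ↥(V ^ L) = w := hw
  have : Finite ↥(V ^ L) := hWfin.to_subtype
  let e : ↥(V ^ L) ≃ Fin w := (Finite.equivFinOfCardEq hWcard)
  have hp : ∀ j : ℕ, ∃ p : Fin k → Ω, j ∈ good → Set.range p = D j := by
    intro j
    by_cases hj : j ∈ good
    · obtain ⟨p, hp⟩ := exists_enum (C := k) (hDfin j) (hnoinv _) (by
        simp only [good, Finset.mem_filter] at hj
        exact hj.2)
      exact ⟨p, fun _ => hp⟩
    · exact ⟨fun _ => x, fun h => absurd h hj⟩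
  choose p hp using hp
  choose code hc1 hc2 using fun j => exists_code w e k (ball V x (r j)) (p j)
  obtain ⟨m, hm, n, hn, hmn, hcode⟩ : ∃ m ∈ good, ∃ n ∈ good, m < n ∧ code m = code n := by
    obtain ⟨m, hm, n, hn, hne, hc⟩ := Finset.exists_ne_map_eq_of_card_lt_of_maps_to
      (t := (Finset.univ : Finset (Code w k))) (by rw [Finset.card_univ]; exact hgood)
      (f := code) (fun _ _ => Finset.mem_coe.2 (Finset.mem_univ _))
    rcases lt_or_gt_of_ne hne with h | h
    · exact ⟨m, hm, n, hn, h, hc⟩
    · exact ⟨n, hn, m, hm, h, hc.symm⟩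
  have hcollar : Collar V P.ρ L (ball V x (r m)) (ball V x (r n)) (p m) (p n) :=
    { one_mem := P.one_mem
      inv_mem := P.inv_mem
      hp := hp m hm
      hq := hp n hn
      heq := fun a ha b hb i j => by
        rw [hc1 m ⟨a, ha⟩ ⟨b, hb⟩ i j, hc1 n ⟨a, ha⟩ ⟨b, hb⟩ i j, hcode]
      hmem := fun a ha i => by
        rw [hc2 m ⟨a, ha⟩ i, hc2 n ⟨a, ha⟩ i, hcode]
      hfar := fun a ha y hy => by
        have := smul_mem_ball x ha hy
        refine ball_mono P.one_mem x ?_ this
        have := hrlt m n hmn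
        omega
      hL := le_rfl }
  obtain ⟨Φ, hΦ⟩ := glue hcollar P.two_le P.φ P.surj P.R P.ker P.len P.of_mem
  have : Finite ↥((ball V x (r n)) \ (ball V x (r m))) :=
    ((ball_finite P.V_finite x _).subset Set.sdiff_subset).to_subtype
  have htop : Φ.ker = ⊤ := hG _ inferInstance inferInstance
  -- a moved point deep inside the annulus
  obtain ⟨y, hy, s, hs, hsy⟩ := hnoinv (r m + 2)
  have hrm := hrlt m n hmn
  have hym : y ∉ ball V x (r m + 1) := bdry_ball x ⟨hy, s, hs, hsy⟩
  have hin : ∀ g ∈ V ^ 1, g • y ∈ (ball V x (r n)) \ (ball V x (r m)) := by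
    intro g hg
    rw [pow_one] at hg
    refine ⟨ball_mono P.one_mem x (by omega) (smul_mem_ball_succ x hg hy), fun h => hym ?_⟩
    have := smul_mem_ball_succ x (P.inv_mem g hg) h
    rwa [inv_smul_smul] at this
  have hyin : y ∈ (ball V x (r n)) \ (ball V x (r m)) := by
    have := hin 1 (by simpa using P.one_mem)
    rwa [one_smul] at this
  have hsne : s • y ≠ y := fun h => hsy (by rw [h]; exact hy)
  rcases hs with hs1 | ⟨z, rfl⟩
  · rw [Set.mem_singleton_iff] at hs1
    rw [hs1, one_smul] at hsne
    exact hsne rfl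
  · have h6 := hΦ [z] ⟨y, hyin⟩ hin
    have h7 : Φ (P.φ (FreeGroup.mk [z])) = 1 := by
      have : P.φ (FreeGroup.mk [z]) ∈ Φ.ker := by rw [htop]; trivial
      exact this
    rw [h7, mk_eq_prod] at h6
    apply hsne
    simpa using h6.symm

end Vale.Agent.P196
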